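import Vale.Agent.Lib.P309.Main2

open scoped ENNReal

namespace Vale.Agent.Results.P309.A1_Q1

open Vale.Agent.Lib.P309

/-- The form of the first question: for every `c > 0` there are `c' > 0` and `ε₀ > 0` such that,
in every dimension `d ≥ 1000`, a learner with at most `c d²` bits that succeeds at an accuracy
`ε < ε₀` has horizon `T ≥ c' d log(1/ε)`. -/
theorem result (c : ℝ) (hc : 0 < c) :
    ∃ c' ε₀ : ℝ, 0 < c' ∧ 0 < ε₀ ∧ ∀ d M T : ℕ, 1000 ≤ d → (M : ℝ) ≤ c * (d : ℝ) ^ 2 →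
      ∀ ε : ℝ, 0 < ε → ε < ε₀ → ∀ L : Learner d M, (2 / 3 : ℝ≥0∞) ≤ L.success T ε →
        c' * (d : ℝ) * Real.log (1 / ε) ≤ (T : ℝ) := by
  set C : ℝ := 544 * (1 + c) with hC
  have hC0 : 0 < C := by positivity
  refine ⟨1 / (2 * C), (2:ℝ) ^ (-(2 * C)), by positivity, by positivity, ?_⟩
  intro d M T hd hM ε hε0 hε1 L hL
  have hD : (0:ℝ) < (d:ℝ) := by
    have : 0 < d := by omega
    exact_mod_cast this
  have hlt1 : ε < 1 := by
    refine hε1.trans ?_
    exact Real.rpow_lt_one_of_one_lt_of_neg (by norm_num) (by linarith)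
  have hmain := main_full hd hε0 hlt1 L hL
  set Lg : ℝ := Real.logb 2 (1 / ε) with hLg
  -- the logarithm is large
  have h2C : 2 * C ≤ Lg := by
    rw [hLg, Real.le_logb_iff_rpow_le (by norm_num) (by positivity), le_div_iff₀ hε0]
    have h1 : (2:ℝ) ^ (2 * C) * (2:ℝ) ^ (-(2 * C)) = 1 := by
      rw [← Real.rpow_add (by norm_num)]
      simp
    have h2 : (0:ℝ) < (2:ℝ) ^ (2 * C) := by positivity
    nlinarith
  -- comparing the two logarithms
  have hlog : Real.log (1 / ε) ≤ Lg := by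
    have h1 : 0 ≤ Real.log (1 / ε) := Real.log_nonneg (by
      rw [one_le_div hε0]
      exact hlt1.le)
    rw [hLg, Real.logb, le_div_iff₀ (Real.log_pos (by norm_num))]
    have h2 : Real.log 2 ≤ 1 := by
      have := Real.log_two_lt_d9
      linarith
    nlinarith
  have hR : (M : ℝ) / (d : ℝ) ^ 2 ≤ c := by
    rw [div_le_iff₀ (by positivity)]
    exact hM
  have hTd : 0 ≤ (T : ℝ) / (d : ℝ) := by positivity
  have hb : Lg ≤ C * (1 + (T : ℝ) / (d : ℝ)) := by
    refine hmain.trans ?_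
    rw [hC]
    gcongr
  -- conclusion
  have h3 : Lg / (2 * C) ≤ (T : ℝ) / (d : ℝ) := by
    rw [div_le_iff₀ (by positivity)]
    nlinarith
  have h4 : 1 / (2 * C) * Real.log (1 / ε) ≤ (T : ℝ) / (d : ℝ) := by
    refine le_trans ?_ h3
    have h5 : 1 / (2 * C) * Real.log (1 / ε) ≤ 1 / (2 * C) * Lg :=
      mul_le_mul_of_nonneg_left hlog (by positivity)
    have h6 : 1 / (2 * C) * Lg = Lg / (2 * C) := by ring
    rw [h6] at h5
    exact h5
  rw [le_div_iff₀ hD] at h4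
  calc 1 / (2 * C) * (d : ℝ) * Real.log (1 / ε) = 1 / (2 * C) * Real.log (1 / ε) * (d : ℝ) := by ring
    _ ≤ _ := h4

end Vale.Agent.Results.P309.A1_Q1
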