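import Vale.Agent.Lib.P309.Main

open scoped ENNReal

namespace Vale.Agent.Results.P309.A_main

open Vale.Agent.Lib.P309

/-- A learner with `M` bits and horizon `T` that succeeds at angular accuracy `ε` with probability
at least `2/3` on noiseless Gaussian regression in dimension `d ≥ 100` satisfies
`log₂(1/ε) ≤ 20 (1 + M/d²) 2^(5T/d)`. -/
theorem result (d M T : ℕ) (hd : 100 ≤ d) (ε : ℝ) (hε0 : 0 < ε) (hε1 : ε < 1)
    (L : Learner d M) (hL : (2 / 3 : ℝ≥0∞) ≤ L.success T ε) :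
    Real.logb 2 (1 / ε) ≤ 20 * (1 + (M : ℝ) / (d : ℝ) ^ 2) * 2 ^ (5 * (T : ℝ) / (d : ℝ)) :=
  main_bound hd hε0 hε1 L hL

end Vale.Agent.Results.P309.A_main
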